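import Vale.Agent.P076.R2.H831V.Spec

/-! P076: row P4 (StNear): the majorant of a tube near the tube. -/

open MeasureTheory Complex FourierTransform Filter Topology Set
open scoped ENNReal NNReal

namespace Vale.Agent.P076.R2.H831V

open Vale.Agent.P076 Vale.Agent.P076.H791 Vale.Agent.P076.R2.H45 Vale.Agent.P076.R2.H831
open Vale.Agent.P076.R2.H831.V2

namespace N4

variable {n : ℕ}

lemma nrm {e : E n} (he : ‖e‖ = 1) (z : E n) :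
    ‖z - (inner ℝ z e : ℝ) • e‖ ^ 2 = ‖z‖ ^ 2 - (inner ℝ z e : ℝ) ^ 2 := by
  rw [norm_sub_sq_real, norm_smul, inner_smul_right, he]
  simp only [Real.norm_eq_abs, mul_one, sq_abs]
  ring

lemma par {e : E n} (he : ‖e‖ = 1) {η η₁ : E n} (h4 : ‖η₁ - η‖ ≤ 1) :
    ((inner ℝ η₁ e : ℝ) - inner ℝ η e) ^ 2 ≤ 1 := by
  have h6 : |(inner ℝ η₁ e : ℝ) - inner ℝ η e| ≤ ‖η₁ - η‖ := by
    have := abs_real_inner_le_norm (η₁ - η) e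
    rwa [he, mul_one, inner_sub_left] at this
  have h7 : |(inner ℝ η₁ e : ℝ) - inner ℝ η e| ≤ 1 := h6.trans h4
  rw [← sq_abs]
  nlinarith [abs_nonneg ((inner ℝ η₁ e : ℝ) - inner ℝ η e)]

lemma perp {e : E n} (he : ‖e‖ = 1) {η η₁ : E n} (h4 : ‖η₁ - η‖ ≤ 1) :
    ‖η₁‖ ^ 2 - (inner ℝ η₁ e : ℝ) ^ 2 ≤ 2 * (‖η‖ ^ 2 - (inner ℝ η e : ℝ) ^ 2) + 2 := by
  have h9 : η₁ - (inner ℝ η₁ e : ℝ) • e = (η - (inner ℝ η e : ℝ) • e) +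
      ((η₁ - η) - (inner ℝ (η₁ - η) e : ℝ) • e) := by
    rw [inner_sub_left, sub_smul]
    abel
  have h10 : ‖η₁ - (inner ℝ η₁ e : ℝ) • e‖ ≤ ‖η - (inner ℝ η e : ℝ) • e‖ +
      ‖(η₁ - η) - (inner ℝ (η₁ - η) e : ℝ) • e‖ := by
    rw [h9]
    exact norm_add_le _ _
  have h11 : ‖η₁ - η‖ ^ 2 ≤ 1 := by nlinarith [norm_nonneg (η₁ - η)]
  have h12 : ‖(η₁ - η) - (inner ℝ (η₁ - η) e : ℝ) • e‖ ^ 2 ≤ 1 := by
    rw [nrm he]
    nlinarith [sq_nonneg (inner ℝ (η₁ - η) e : ℝ)]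
  rw [← nrm he, ← nrm he]
  have h13 := pow_le_pow_left₀ (norm_nonneg _) h10 2
  generalize ‖η₁ - (inner ℝ η₁ e : ℝ) • e‖ = A at *
  generalize ‖η - (inner ℝ η e : ℝ) • e‖ = B at *
  generalize ‖(η₁ - η) - (inner ℝ (η₁ - η) e : ℝ) • e‖ = C at *
  nlinarith [sq_nonneg (B - C)]

lemma lr {k : ℕ} (hk : 3 ≤ k) (hn : 1 ≤ n) : (LL2 n k / RR k) ^ 2 ≤ 8 * n := by
  have hn1 : (1 : ℝ) ≤ n := by exact_mod_cast hn
  have hR1 := RR_ge hk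
  have hR0 : 0 < RR k := lt_of_lt_of_le one_pos hR1
  have h6 : Real.log (RR k) ≤ RR k - 1 := Real.log_le_sub_one_of_pos hR0
  have h7 : LL2 n k ^ 2 ≤ 8 * n * RR k := by
    rw [LL_sq2 hk]
    have h8 : 6 * (n : ℝ) * Real.log (RR k) ≤ 6 * n * (RR k - 1) := by gcongr
    nlinarith
  rw [div_pow, div_le_iff₀ (by positivity)]
  refine h7.trans ?_
  have h9 : RR k ≤ RR k ^ 2 := by nlinarith
  have h10 : (0 : ℝ) ≤ 8 * n := by positivity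
  exact mul_le_mul_of_nonneg_left h9 h10

lemma num {a b N x y x1 y1 : ℝ} (hN : 1 ≤ N) (ha0 : 0 ≤ a) (ha : a ≤ 8 * N) (hb0 : 0 ≤ b)
    (hb : b ≤ 1) (hx : a * x ≤ 1) (hy : b * y ≤ 1 / 36) (hx1 : x1 ≤ 2 * x + 2)
    (hy1 : y1 ≤ 2 * y + 2) : Real.exp (-(70 * N)) ≤ Real.exp (-(Real.pi * (a * x1 + b * y1))) := by
  apply Real.exp_le_exp.2
  have hpi3 := Real.pi_gt_three
  have hpi4 := Real.pi_lt_d2
  have h1 := mul_le_mul_of_nonneg_left hx1 ha0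
  have h2 := mul_le_mul_of_nonneg_left hy1 hb0
  have h3 : a * x1 + b * y1 ≤ 21 * N := by nlinarith
  have h4 : Real.pi * (a * x1 + b * y1) ≤ Real.pi * (21 * N) :=
    mul_le_mul_of_nonneg_left h3 (by positivity)
  nlinarith

lemma core {k : ℕ} (hk : 3 ≤ k) {p : E n × ℝ} (hp : ‖p.1‖ = 1) (hp2 : p.2 ≤ 2 ^ k / 2) {η : E n}
    (h1 : 2 ^ k ≤ ‖(2 * Real.pi) • η‖) (h2 : ‖(2 * Real.pi) • η‖ < 2 ^ (k + 1))
    (h3 : ‖(2 * Real.pi) • η - (inner ℝ ((2 * Real.pi) • η) p.1 : ℝ) • p.1‖ ≤ p.2) :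
    RR k ≤ |(inner ℝ η p.1 : ℝ)| ∧ |(inner ℝ η p.1 : ℝ)| ≤ 3 * RR k ∧
      ((max p.2 ((2 : ℝ) ^ ((k : ℝ) / 2))) ^ 2)⁻¹ * (‖η‖ ^ 2 - (inner ℝ η p.1 : ℝ) ^ 2) ≤
        1 / 36 := by
  have hR1 := RR_ge hk
  have hR0 : 0 < RR k := lt_of_lt_of_le one_pos (RR_ge hk)
  have hpi3 := Real.pi_gt_three
  have hpi4 := Real.pi_lt_d2
  set u : ℝ := inner ℝ η p.1 with hu
  set σ : ℝ := max p.2 ((2 : ℝ) ^ ((k : ℝ) / 2)) with hσ
  have hσ0 : 0 < σ := lt_of_lt_of_le (by positivity) (le_max_right _ _)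
  have hp0 : 0 ≤ p.2 := (norm_nonneg _).trans h3
  have hR8 : (2 : ℝ) ^ k = 8 * RR k := by unfold RR; ring
  have e1 : ‖(2 * Real.pi) • η - (inner ℝ ((2 * Real.pi) • η) p.1 : ℝ) • p.1‖ ^ 2 =
      (2 * Real.pi) ^ 2 * (‖η‖ ^ 2 - u ^ 2) := by
    rw [inner_smul_left, norm_sub_sq_real, norm_smul, norm_smul, inner_smul_left, inner_smul_right,
      hp, ← hu]
    simp only [RCLike.conj_to_real, Real.norm_eq_abs, mul_one]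
    rw [abs_of_pos (by positivity), sq_abs]
    ring
  have e2 : (2 * Real.pi) ^ 2 * (‖η‖ ^ 2 - u ^ 2) ≤ p.2 ^ 2 := by
    rw [← e1]
    gcongr
  rw [norm_smul, Real.norm_eq_abs, abs_of_pos (by positivity), hR8] at h1
  rw [norm_smul, Real.norm_eq_abs, abs_of_pos (by positivity), pow_succ, hR8] at h2
  rw [hR8] at hp2
  have hη0 : 0 ≤ ‖η‖ := norm_nonneg η
  have e3 : (8 * RR k) ^ 2 ≤ (2 * Real.pi) ^ 2 * ‖η‖ ^ 2 := by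
    rw [← mul_pow]
    gcongr
  have e4 : p.2 ^ 2 ≤ (4 * RR k) ^ 2 := by
    gcongr
    linarith
  have hpisq : Real.pi ^ 2 ≤ 12 := by nlinarith
  have e5 : RR k ^ 2 ≤ u ^ 2 := by
    have h6 : 48 * RR k ^ 2 ≤ (2 * Real.pi) ^ 2 * u ^ 2 := by nlinarith
    have h7 : (2 * Real.pi) ^ 2 * u ^ 2 ≤ 48 * u ^ 2 := by nlinarith [sq_nonneg u]
    linarith
  refine ⟨?_, ?_, ?_⟩
  · rw [← abs_of_pos hR0]
    exact sq_le_sq.1 e5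
  · have h6 : |u| ≤ ‖η‖ := by
      have := abs_real_inner_le_norm η p.1
      rwa [hp, mul_one] at this
    nlinarith
  · rw [inv_mul_le_iff₀ (by positivity)]
    have h6 : p.2 ^ 2 ≤ σ ^ 2 := by
      gcongr
      exact le_max_left _ _
    have h7 : 0 ≤ ‖η‖ ^ 2 - u ^ 2 := by
      have h8 : 0 ≤ (2 * Real.pi) ^ 2 * (‖η‖ ^ 2 - u ^ 2) := by rw [← e1]; positivity
      exact nonneg_of_mul_nonneg_right h8 (by positivity)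
    have h9 : (36 : ℝ) ≤ (2 * Real.pi) ^ 2 := by nlinarith
    have h10 := mul_le_mul_of_nonneg_right h9 h7
    linarith

lemma key {k : ℕ} (hn : 1 ≤ n) (hk : 3 ≤ k) {p : E n × ℝ} (hp : ‖p.1‖ = 1) {η η₁ : E n}
    (h4 : ‖η₁ - η‖ ≤ 1) (e8 : ((max p.2 ((2 : ℝ) ^ ((k : ℝ) / 2))) ^ 2)⁻¹ *
      (‖η‖ ^ 2 - (inner ℝ η p.1 : ℝ) ^ 2) ≤ 1 / 36) {c : ℝ}
    (hc : |(inner ℝ η p.1 : ℝ) - c| ≤ RR k / LL2 n k) :
    Real.exp (-(70 * n)) ≤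
      gg p.1 (RR k) (LL2 n k) (max p.2 ((2 : ℝ) ^ ((k : ℝ) / 2))) c η₁ := by
  have hn1 : (1 : ℝ) ≤ n := by exact_mod_cast hn
  have hR0 : 0 < RR k := lt_of_lt_of_le one_pos (RR_ge hk)
  have hL0 : 0 < LL2 n k := lt_of_lt_of_le one_pos (LL_ge2 (n := n) hk)
  have hσ1 : 1 ≤ max p.2 ((2 : ℝ) ^ ((k : ℝ) / 2)) := by
    refine le_trans ?_ (le_max_right _ _)
    exact Real.one_le_rpow (by norm_num) (by positivity)
  unfold gg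
  have h5 := par hp h4
  refine num hn1 (sq_nonneg _) (lr hk hn) (by positivity) ?_ ?_ e8 ?_ (perp hp h4)
    (x := ((inner ℝ η p.1 : ℝ) - c) ^ 2)
  · refine inv_le_one_of_one_le₀ ?_
    nlinarith
  · have h7 : ((inner ℝ η p.1 : ℝ) - c) ^ 2 ≤ (RR k / LL2 n k) ^ 2 := by
      rw [← sq_abs]
      gcongr
    calc (LL2 n k / RR k) ^ 2 * ((inner ℝ η p.1 : ℝ) - c) ^ 2 ≤
          (LL2 n k / RR k) ^ 2 * (RR k / LL2 n k) ^ 2 := by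
          gcongr
      _ = 1 := by field_simp
  · nlinarith [sq_nonneg (((inner ℝ η₁ p.1 : ℝ) - inner ℝ η p.1) - ((inner ℝ η p.1 : ℝ) - c))]

end N4

open N4

/-- Row P4. -/
theorem stNear {n : ℕ} (hn : 1 ≤ n) : StNear n := by
  intro k hk p hp hp2 η η₁ h1 h2 h3 h4
  obtain ⟨e6, e7, e8⟩ := core hk hp hp2 h1 h2 h3
  have nn : ∀ j ∈ Finset.range (JJ2 n k),
      0 ≤ gg p.1 (RR k) (LL2 n k) (max p.2 ((2 : ℝ) ^ ((k : ℝ) / 2))) (cc2 n k j) η₁ +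
      gg p.1 (RR k) (LL2 n k) (max p.2 ((2 : ℝ) ^ ((k : ℝ) / 2))) (-cc2 n k j) η₁ := fun j _ =>
    add_nonneg (gg_nonneg _ _ _ _ _ _) (gg_nonneg _ _ _ _ _ _)
  unfold tub2
  rcases le_total 0 (inner ℝ η p.1 : ℝ) with hu0 | hu0
  · rw [abs_of_nonneg hu0] at e6 e7
    obtain ⟨j, hj, hjc⟩ := exists_center2 (n := n) hk e6 e7
    refine le_trans ?_ (Finset.single_le_sum nn hj)
    have := key hn hk hp h4 e8 hjc
    have h9 := gg_nonneg p.1 (RR k) (LL2 n k) (max p.2 ((2 : ℝ) ^ ((k : ℝ) / 2))) (-cc2 n k j) η₁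
    linarith
  · rw [abs_of_nonpos hu0] at e6 e7
    obtain ⟨j, hj, hjc⟩ := exists_center2 (n := n) hk e6 e7
    refine le_trans ?_ (Finset.single_le_sum nn hj)
    have h10 : |(inner ℝ η p.1 : ℝ) - -cc2 n k j| ≤ RR k / LL2 n k := by
      rw [← abs_neg]
      rw [show -((inner ℝ η p.1 : ℝ) - -cc2 n k j) = -(inner ℝ η p.1 : ℝ) - cc2 n k j by ring]
      exact hjc
    have := key hn hk hp h4 e8 h10
    have h9 := gg_nonneg p.1 (RR k) (LL2 n k) (max p.2 ((2 : ℝ) ^ ((k : ℝ) / 2))) (cc2 n k j) η₁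
    linarith

end Vale.Agent.P076.R2.H831V
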